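import Vale.Agent.P133.R2.H28.Conv
import Mathlib.Topology.Baire.Lemmas
import Mathlib.Topology.Maps.Proper.Basic

/-!
P133 (helper645): unital weakly purely infinite C*-algebras with countably many maximal ideals.
-/

open scoped ComplexOrder

namespace Vale.Agent.P133.R2.H28.H645

open Vale.Agent.P133 Vale.Agent.P133.Statement Vale.Agent.P133.H832 Vale.Agent.P133F
  Vale.Agent.P133.H681 Vale.Agent.P133.R2.H28

universe u

section

variable {A : Type u} [NonUnitalCStarAlgebra A] [PartialOrder A] [StarOrderedRing A]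

/-- in a weakly purely infinite algebra, the hereditary subalgebra of `x` contains an element
which is not scalar modulo the closed ideal `M`, if `x` is not in `M` -/
theorem exists_nonscalar {n : ℕ} (hn : WPI A n) {x : A} (x0 : 0 ≤ x) {M : Submodule ℂ A}
    (hM : IsClosedIdeal M) (hxM : x ∉ M) :
    ∃ w : A, star w = w ∧ ∀ l : ℝ, x * w * x * x - l • x ∉ M := by
  have hxs : star x = x := (IsSelfAdjoint.of_nonneg x0).star_eq
  have hx2 : 0 ≤ x * x := by
    have h1 := star_mul_self_nonneg x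
    rwa [hxs] at h1
  have hx2M : x * x ∉ M := fun h => hxM (hM.of_star_mul_self (by rw [hxs]; exact h))
  obtain ⟨B', i1', i2', i3', ψ, hψ, hψJ, hψa, hprime⟩ := exists_prime_quotient hM hx2 hx2M
  obtain ⟨c, hc0, hc, hac⟩ := exists_infB hn hψ hprime hx2 hψa
  have hcM : c ∉ M := fun h => hc (hψJ c h)
  obtain ⟨B, i1, i2, i3, φ, hφ, hk⟩ := hM.quot
  have hφc : 0 < ‖φ c‖ := norm_pos_iff.2 fun h => hcM ((hk c).1 h)
  set δ : ℝ := ‖φ c‖ / 2 with hδdef
  have hδ : 0 < δ := by positivity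
  obtain ⟨r, hr⟩ := hac.2 2 (δ / 4) (by positivity)
  refine ⟨r 0 * star (r 0), by rw [star_mul, star_star], fun l hl => ?_⟩
  set Q : B := φ x with hQ
  set X : B := φ (r 0) with hX
  set Y : B := φ (r 1) with hY
  have hQs : star Q = Q := by rw [hQ, ← map_star, hxs]
  set M1 : B := Q * X with hM1
  set M2 : B := Q * Y with hM2
  have hDQ : (M1 * star M1) * Q = l • Q := by
    have h1 := (hk _).2 hl
    rw [map_sub, sub_eq_zero] at h1
    have h2 : φ (l • x) = l • φ x := by
      rw [← Complex.coe_smul, map_smul, Complex.coe_smul]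
    rw [h2] at h1
    rw [← hQ] at h1
    rw [← h1]
    simp only [map_mul, map_star, hM1, star_mul, hQs, ← hQ, ← hX, mul_assoc]
  have hD1 : (M1 * star M1) * M1 = l • M1 := by
    rw [show (M1 * star M1) * M1 = ((M1 * star M1) * Q) * X by rw [mul_assoc _ Q X], hDQ,
      smul_mul_assoc]
  have hD2 : (M1 * star M1) * M2 = l • M2 := by
    rw [show (M1 * star M1) * M2 = ((M1 * star M1) * Q) * Y by rw [mul_assoc _ Q Y], hDQ,
      smul_mul_assoc]
  have key : ∀ u v : A, star (Q * φ u) * (Q * φ v) = φ (star u * (x * x) * v) := by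
    intro u v
    rw [map_mul, map_mul, map_star, map_mul, star_mul, hQs]; simp only [← hQ, mul_assoc]
  have n1 : ‖star M1 * M1 - φ c‖ ≤ δ / 4 := by
    rw [hM1, hX, key, ← map_sub]
    have := (hr 0 0).le
    rw [if_pos rfl] at this
    exact (NonUnitalStarAlgHom.norm_apply_le φ _).trans this
  have n2 : ‖star M2 * M2 - φ c‖ ≤ δ / 4 := by
    rw [hM2, hY, key, ← map_sub]
    have := (hr 1 1).le
    rw [if_pos rfl] at this
    exact (NonUnitalStarAlgHom.norm_apply_le φ _).trans this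
  have n3 : ‖star M1 * M2‖ ≤ δ / 4 := by
    rw [hM1, hM2, hX, hY, key]
    have := (hr 0 1).le
    rw [if_neg (by decide), sub_zero] at this
    exact (NonUnitalStarAlgHom.norm_apply_le φ _).trans this
  have e1 : (star M1 * M1) * (star M1 * M1) = l • (star M1 * M1) := by
    calc _ = star M1 * ((M1 * star M1) * M1) := by simp only [mul_assoc]
      _ = _ := by rw [hD1, mul_smul_comm]
  have e2 : star (star M1 * M2) * (star M1 * M2) = l • (star M2 * M2) := by
    calc _ = star M2 * ((M1 * star M1) * M2) := by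
          rw [star_mul, star_star]; simp only [mul_assoc]
      _ = _ := by rw [hD2, mul_smul_comm]
  have f1 : ‖star M1 * M1‖ * ‖star M1 * M1‖ = |l| * ‖star M1 * M1‖ := by
    have h1 := congrArg norm e1
    rw [norm_smul, Real.norm_eq_abs] at h1
    rw [← h1]
    have h2 : star (star M1 * M1) = star M1 * M1 := by rw [star_mul, star_star]
    have h3 := CStarRing.norm_star_mul_self (x := star M1 * M1)
    rw [h2] at h3
    exact h3.symm
  have f2 : ‖star M1 * M2‖ * ‖star M1 * M2‖ = |l| * ‖star M2 * M2‖ := by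
    have h1 := congrArg norm e2
    rw [norm_smul, Real.norm_eq_abs, CStarRing.norm_star_mul_self] at h1
    exact h1
  have g0 : ‖φ c‖ = 2 * δ := by rw [hδdef]; ring
  have g1 : 3 * δ / 4 < ‖star M1 * M1‖ := by
    have h1 : ‖φ c‖ ≤ ‖star M1 * M1‖ + ‖star M1 * M1 - φ c‖ := by
      have h2 : φ c = star M1 * M1 - (star M1 * M1 - φ c) := by abel
      calc ‖φ c‖ = ‖star M1 * M1 - (star M1 * M1 - φ c)‖ := by rw [← h2]
        _ ≤ _ := norm_sub_le _ _
    linarith
  have g2 : 3 * δ / 4 < ‖star M2 * M2‖ := by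
    have h1 : ‖φ c‖ ≤ ‖star M2 * M2‖ + ‖star M2 * M2 - φ c‖ := by
      have h2 : φ c = star M2 * M2 - (star M2 * M2 - φ c) := by abel
      calc ‖φ c‖ = ‖star M2 * M2 - (star M2 * M2 - φ c)‖ := by rw [← h2]
        _ ≤ _ := norm_sub_le _ _
    linarith
  have g3 : ‖star M1 * M1‖ = |l| := by
    have h1 : ‖star M1 * M1‖ ≠ 0 := by
      have : 0 < ‖star M1 * M1‖ := by linarith
      exact this.ne'
    exact mul_right_cancel₀ h1 f1
  rw [g3] at g1
  have g4 : ‖star M1 * M2‖ * ‖star M1 * M2‖ ≤ δ / 4 * (δ / 4) :=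
    mul_le_mul n3 n3 (norm_nonneg _) (by positivity)
  have g5 : 3 * δ / 4 * (3 * δ / 4) ≤ |l| * ‖star M2 * M2‖ :=
    mul_le_mul g1.le g2.le (by positivity) (abs_nonneg _)
  nlinarith [f2]

/-- for countably many closed ideals there is a common element, by Baire's theorem -/
theorem exists_nonscalar_all {n : ℕ} (hn : WPI A n) {x : A} (x0 : 0 ≤ x)
    {S : Set (Submodule ℂ A)} (hS : S.Countable) (hS1 : ∀ M ∈ S, IsClosedIdeal M)
    (hS2 : ∀ M ∈ S, x ∉ M) :
    ∃ d : A, IsSelfAdjoint d ∧ d ∈ Her x ∧ ∀ M ∈ S, ∀ l : ℝ, d * x - l • x ∉ M := by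
  have hxs : star x = x := (IsSelfAdjoint.of_nonneg x0).star_eq
  have : Countable S := hS.to_subtype
  let D : A → A := fun w => x * (w + star w) * x
  have hDc : Continuous D := by
    show Continuous fun w => x * (w + star w) * x
    fun_prop
  let F : S × ℕ → Set A := fun p => {w | ∃ l ∈ Set.Icc (-(p.2 : ℝ)) p.2, D w * x - l • x ∈ p.1.1}
  have hF : ∀ p, IsClosed (F p) := by
    rintro ⟨M, K⟩
    have h1 : IsClosed {q : A × Set.Icc (-(K : ℝ)) K | D q.1 * x - (q.2 : ℝ) • x ∈ M.1} := by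
      refine (hS1 M.1 M.2).1.preimage ?_
      have h2 : Continuous fun q : A × Set.Icc (-(K : ℝ)) K => D q.1 := hDc.comp continuous_fst
      fun_prop
    have h2 := isClosedMap_fst_of_compactSpace (X := A) (Y := Set.Icc (-(K : ℝ)) K) _ h1
    convert h2 using 1
    ext w
    constructor
    · rintro ⟨l, hl, h⟩
      exact ⟨(w, ⟨l, hl⟩), h, rfl⟩
    · rintro ⟨⟨w', l, hl⟩, h, rfl⟩
      exact ⟨l, hl, h⟩
  by_contra hcon
  push Not at hcon
  have hU : ⋃ p, F p = Set.univ := by
    refine Set.eq_univ_of_forall fun w => ?_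
    have hDs : IsSelfAdjoint (D w) := by
      show star (x * (w + star w) * x) = x * (w + star w) * x
      rw [star_mul, star_mul, star_add, star_star, hxs, add_comm (star w) w]
      simp only [mul_assoc]
    obtain ⟨M, hM, l, hl⟩ := hcon (D w) hDs (subset_closure ⟨w + star w, rfl⟩)
    obtain ⟨K, hK⟩ := exists_nat_ge |l|
    exact Set.mem_iUnion.2 ⟨(⟨M, hM⟩, K), l, abs_le.1 hK, hl⟩
  have hne : Nonempty A := ⟨0⟩
  obtain ⟨⟨⟨M, hM⟩, K⟩, w0, hw0⟩ := nonempty_interior_of_iUnion_of_closed hF hU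
  obtain ⟨w1, hw1, hw2⟩ := exists_nonscalar hn x0 (hS1 M hM) (hS2 M hM)
  have hnhd : F (⟨M, hM⟩, K) ∈ nhds w0 := mem_interior_iff_mem_nhds.1 hw0
  have hcont : Filter.Tendsto (fun t : ℝ => w0 + t • w1) (nhds 0) (nhds w0) := by
    have h1 : Continuous fun t : ℝ => w0 + t • w1 := by fun_prop
    have h2 := h1.tendsto 0
    rwa [zero_smul, add_zero] at h2
  have h1 := hcont.eventually hnhd
  obtain ⟨ε, hε, h2⟩ := Metric.eventually_nhds_iff.1 h1
  have h3 : F (⟨M, hM⟩, K) (w0 + (ε / 2) • w1) := h2 (by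
    rw [dist_zero_right, Real.norm_of_nonneg (by positivity)]; linarith)
  obtain ⟨l', hl', h4⟩ := h3
  obtain ⟨l, hl, h5⟩ := interior_subset hw0
  have h6 := M.sub_mem h4 h5
  refine hw2 ((l' - l) / ε) ?_
  have h7 : x * w1 * x * x - ((l' - l) / ε) • x =
      ((ε⁻¹ : ℝ) : ℂ) • ((D (w0 + (ε / 2) • w1) * x - l' • x) - (D w0 * x - l • x)) := by
    have e1 : D (w0 + (ε / 2) • w1) = D w0 + ε • (x * w1 * x) := by
      show x * ((w0 + (ε / 2) • w1) + star (w0 + (ε / 2) • w1)) * x =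
        x * (w0 + star w0) * x + ε • (x * w1 * x)
      have e2 : (w0 + (ε / 2) • w1) + star (w0 + (ε / 2) • w1) = (w0 + star w0) + ε • w1 := by
        rw [star_add, star_smul, hw1, star_trivial (ε / 2 : ℝ)]
        have : ε • w1 = (ε / 2) • w1 + (ε / 2) • w1 := by rw [← add_smul]; congr 1; ring
        rw [this]; abel
      rw [e2, mul_add, add_mul, mul_smul_comm, smul_mul_assoc]
    rw [e1, Complex.coe_smul, add_mul, smul_mul_assoc]
    have e3 : D w0 * x + ε • (x * w1 * x * x) - l' • x - (D w0 * x - l • x) =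
        ε • (x * w1 * x * x) - (l' - l) • x := by
      rw [sub_smul]; abel
    rw [e3, smul_sub, smul_smul, smul_smul, inv_mul_cancel₀ hε.ne', one_smul]
    congr 2
    rw [div_eq_inv_mul]
  rw [h7]
  exact M.smul_mem _ h6

end

section

variable {A : Type u} [CStarAlgebra A]

/-- the maximal closed two-sided ideals of a unital C*-algebra -/
def IsMaxIdeal (M : Submodule ℂ A) : Prop :=
  IsClosedIdeal M ∧ M ≠ ⊤ ∧ ∀ P : Submodule ℂ A, IsClosedIdeal P → M ≤ P → P = M ∨ P = ⊤

theorem ideal_ne_top_iff {P : Submodule ℂ A} (hP : IsClosedIdeal P) : P ≠ ⊤ ↔ (1 : A) ∉ P := by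
  constructor
  · intro h h1
    refine h (Submodule.eq_top_iff'.2 fun x => ?_)
    have := (hP.2 x 1 h1).1
    rwa [mul_one] at this
  · intro h h1
    rw [h1] at h
    exact h Submodule.mem_top

variable [PartialOrder A] [StarOrderedRing A]

theorem exists_maxIdeal {J : Submodule ℂ A} (hJ : IsClosedIdeal J) (h1 : (1 : A) ∉ J) :
    ∃ M : Submodule ℂ A, J ≤ M ∧ IsMaxIdeal M := by
  obtain ⟨P, h2, h3, h4, h5⟩ := exists_max (Q := fun P => (1 : A) ∉ P) hJ h1 (by
    intro N hN h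
    have h6 : (1 : A) ∈ closure (N : Set A) := h
    obtain ⟨y, hy, hy1⟩ := Metric.mem_closure_iff.1 h6 1 one_pos
    obtain ⟨P, hP, hP1, hyP⟩ := hN y hy
    rw [dist_eq_norm] at hy1
    have hu : IsUnit y := by
      have h7 : IsUnit (1 - (1 - y)) := (Units.oneSub (1 - y) hy1).isUnit
      rwa [sub_sub_cancel] at h7
    obtain ⟨u, hu⟩ := hu
    refine hP1 ?_
    have h8 := (hP.2 (↑u⁻¹ : A) y hyP).1
    rwa [← hu, Units.inv_mul] at h8)
  refine ⟨P, h2, h3, (ideal_ne_top_iff h3).2 h4, fun P' hP' hle => ?_⟩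
  by_cases h6 : (1 : A) ∈ P'
  · right
    by_contra h7
    exact (ideal_ne_top_iff hP').1 h7 h6
  · left
    exact h5 P' hle hP' h6

/-- full elements are the elements outside all maximal ideals -/
theorem full_iff {x : A} : InId x 1 ↔ ∀ M : Submodule ℂ A, IsMaxIdeal M → x ∉ M := by
  constructor
  · intro h M hM hx
    exact (ideal_ne_top_iff hM.1).1 hM.2.1 (hM.1.inId hx h)
  · intro h
    obtain ⟨I, hI, hI'⟩ := isClosedIdeal_inId x
    by_contra h1
    obtain ⟨M, h2, h3⟩ := exists_maxIdeal hI fun h4 => h1 ((hI' 1).1 h4)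
    exact h M h3 (h2 ((hI' x).2 (InId.refl x)))

/-- a cut of a full element is full -/
theorem exists_full_cut {x : A} (x0 : 0 ≤ x) (h : InId x 1) :
    ∃ δ : ℝ, 0 < δ ∧ InId (cut x δ) 1 := by
  obtain ⟨δ, hδ, h1⟩ := normMod_inId h (ε := 1 / 2) (by norm_num)
  refine ⟨δ, hδ, full_iff.2 fun M hM hx => ?_⟩
  obtain ⟨B, i1, i2, i3, φ, hφ, hk⟩ := hM.1.quot
  have h2 : NormMod {cut x δ} (cut x δ) 0 := by
    intro B i φ hφ
    rw [hφ _ (Set.mem_singleton _), norm_zero]
  have h3 : NormMod {cut x δ} x δ := by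
    have := normMod_of_cut x0 hδ h2
    rwa [zero_add] at this
  have h4 := h1 _ h3 B i1 φ (by simpa using (hk _).2 hx)
  have h5 : star (φ 1) * φ 1 = φ 1 := by rw [← map_star, ← map_mul, star_one, one_mul]
  have h6 : ‖φ 1‖ * ‖φ 1‖ = ‖φ 1‖ := by
    conv_rhs => rw [← h5]
    exact (CStarRing.norm_star_mul_self).symm
  have h7 : ‖φ 1‖ = 0 := by nlinarith [norm_nonneg (φ 1)]
  exact (ideal_ne_top_iff hM.1).1 hM.2.1 ((hk 1).1 (norm_eq_zero.1 h7))

/-- two orthogonal full elements in the hereditary subalgebra of a full element -/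
theorem two_full {n : ℕ} (hn : WPI A n) (hc : {M : Submodule ℂ A | IsMaxIdeal M}.Countable)
    {x : A} (x0 : 0 ≤ x) (hx : InId x 1) :
    ∃ b₁ b₂ : A, 0 ≤ b₁ ∧ 0 ≤ b₂ ∧ b₁ * b₂ = 0 ∧ b₁ ∈ Her x ∧ b₂ ∈ Her x ∧
      InId b₁ 1 ∧ InId b₂ 1 := by
  obtain ⟨d, hd, hdx, hd1⟩ := exists_nonscalar_all hn x0 hc (fun M hM => hM.1)
    (fun M hM => full_iff.1 hx M hM)
  obtain ⟨δ, hδ, hδ1⟩ := exists_full_cut x0 hx
  obtain ⟨b₁, b₂, h1, h2, h3, h4, h5, h6, h7⟩ :=
    (Vale.Agent.P133.R2.H474.orth_iff_nowhere_scalar x0).2 (fun r hr =>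
      ⟨d, hd, hdx, fun P hP hcut l hl => by
        have hP1 : (1 : A) ∉ P := fun h => hcut (by
          have := (hP.2 (cfcₙ (fun t : ℝ => max (t - r) 0) x) 1 h).1
          rwa [mul_one] at this)
        obtain ⟨M, hPM, hM⟩ := exists_maxIdeal hP hP1
        exact hd1 M hM l (hPM hl)⟩) δ hδ
  exact ⟨b₁, b₂, h1, h2, h3, h4, h5, InId.trans h6 hδ1, InId.trans h7 hδ1⟩

/-- many orthogonal full elements -/
theorem family_full {n : ℕ} (hn : WPI A n)
    (hc : {M : Submodule ℂ A | IsMaxIdeal M}.Countable) :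
    ∀ (N : ℕ) (x : A), 0 ≤ x → InId x 1 → ∃ y : Fin N → A, (∀ i, 0 ≤ y i) ∧
      (∀ i j, i ≠ j → y i * y j = 0) ∧ (∀ i, y i ∈ RI x) ∧ ∀ i, InId (y i) 1
  | 0, x, _, _ => ⟨fun i => i.elim0, fun i => i.elim0, fun i => i.elim0, fun i => i.elim0,
      fun i => i.elim0⟩
  | N + 1, x, x0, hx => by
    obtain ⟨b₁, b₂, h1, h2, h12, h3, h4, h5, h6⟩ := two_full hn hc x0 hx
    obtain ⟨y, y1, y2, y3, y4⟩ := family_full hn hc N b₂ h2 h6
    have o1 : ∀ i, b₁ * y i = 0 := by
      intro i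
      have h7 := RI.orth (z := b₁) (z' := b₂)
        (by rw [(IsSelfAdjoint.of_nonneg h1).star_eq]; exact h12) (self_mem_RI h1) (y3 i)
      rwa [(IsSelfAdjoint.of_nonneg h1).star_eq] at h7
    have o2 : ∀ i, y i * b₁ = 0 := by
      intro i
      have h7 := congrArg star (o1 i)
      rwa [star_mul, star_zero, (IsSelfAdjoint.of_nonneg h1).star_eq,
        (IsSelfAdjoint.of_nonneg (y1 i)).star_eq] at h7
    refine ⟨Fin.cons b₁ y, ?_, ?_, ?_, ?_⟩
    · intro i
      refine Fin.cases ?_ (fun i => ?_) i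
      · exact h1
      · exact y1 i
    · intro i j
      refine Fin.cases ?_ (fun i => ?_) i
      · refine Fin.cases ?_ (fun j => ?_) j
        · intro h; exact absurd rfl h
        · intro _; exact o1 j
      · refine Fin.cases ?_ (fun j => ?_) j
        · intro _; exact o2 i
        · intro hij; exact y2 i j fun h => hij (congrArg Fin.succ h)
    · intro i
      refine Fin.cases ?_ (fun i => ?_) i
      · exact Her.mem_RI h3
      · exact RI.trans (y3 i) (Her.mem_RI h4)
    · intro i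
      refine Fin.cases ?_ (fun i => ?_) i
      · exact h5
      · exact y4 i

/-- sufficiently many orthogonal full elements make the unit properly infinite -/
theorem unit_of_full {n : ℕ} (hn : WPI A n) {N : ℕ} (hN : numS n ≤ N) {y : Fin N → A}
    (h1 : ∀ i, 0 ≤ y i) (h2 : ∀ i j, i ≠ j → y i * y j = 0) (h3 : ∀ i, InId (y i) 1) :
    InfB (1 : A) 1 := by
  have h10 : (0 : A) ≤ 1 := by
    have := star_mul_self_nonneg (1 : A)
    rwa [star_one, one_mul] at this
  refine infB_mono (Finset.sum_nonneg fun i _ => h1 i) h10 ?_ (infB_sum hn hN h1 h2 h10 h3)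
  have := RI.mul_self (1 : A) (∑ i, y i)
  rwa [one_mul] at this

/-- A unital weakly purely infinite C*-algebra with at most countably many maximal closed
two-sided ideals has a properly infinite unit. -/
theorem unit_of_countable_max (hW : WeaklyPurelyInfinite A)
    (hc : {M : Submodule ℂ A | IsMaxIdeal M}.Countable) : AllBelow (1 : A) 1 := by
  obtain ⟨n, hn⟩ := wpi_elementwise hW
  have h10 : (0 : A) ≤ 1 := by
    have := star_mul_self_nonneg (1 : A)
    rwa [star_one, one_mul] at this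
  obtain ⟨y, y1, y2, y3, y4⟩ := family_full hn hc (numS n) 1 h10 (InId.refl 1)
  exact allBelow_of_infB (unit_of_full hn le_rfl y1 y2 y4)

end

end Vale.Agent.P133.R2.H28.H645
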