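import Vale.Agent.P133.R2.H645.Max
import Mathlib.Analysis.SpecialFunctions.ContinuousFunctionalCalculus.PosPart.Basic

/-!
P133 (helper645): lifting orthogonal full elements modulo the intersection of the maximal ideals.
-/

open scoped ComplexOrder

namespace Vale.Agent.P133.R2.H28.H645

open Vale.Agent.P133 Vale.Agent.P133.Statement Vale.Agent.P133.H832 Vale.Agent.P133F
  Vale.Agent.P133.H681 Vale.Agent.P133.R2.H28

universe u

section

variable {A : Type u} [NonUnitalCStarAlgebra A] [PartialOrder A] [StarOrderedRing A]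

theorem map_nonneg' {B : Type u} [NonUnitalCStarAlgebra B] [PartialOrder B] [StarOrderedRing B]
    (φ : A →⋆ₙₐ[ℂ] B) {y : A} (hy : 0 ≤ y) : 0 ≤ φ y := by
  have h1 : y = star (CFC.sqrt y) * CFC.sqrt y := by
    rw [(IsSelfAdjoint.of_nonneg (CFC.sqrt_nonneg y)).star_eq, CFC.sqrt_mul_sqrt_self y hy]
  rw [h1, map_mul, map_star]
  exact star_mul_self_nonneg _

theorem posPart_mem_RI {d : A} (hd : IsSelfAdjoint d) : d⁺ ∈ RI d := by
  have hp : 0 ≤ d⁺ := CFC.posPart_nonneg d
  have hs : star d⁺ = d⁺ := (IsSelfAdjoint.of_nonneg hp).star_eq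
  have h1 : d * d⁺ = d⁺ * d⁺ := by
    have h3 : (d⁺ - d⁻) * d⁺ = d⁺ * d⁺ := by
      rw [sub_mul, CFC.negPart_mul_posPart, sub_zero]
    rwa [CFC.posPart_sub_negPart d hd] at h3
  refine mem_RI.2 fun ε hε => ?_
  obtain ⟨G, hG⟩ := approx_unit (d⁺) hε
  refine ⟨d⁺ * (d⁺ * G), ?_⟩
  have h2 : d * (d⁺ * (d⁺ * G)) = d⁺ * (star d⁺ * d⁺ * G) := by
    rw [← mul_assoc, h1, hs]; simp only [mul_assoc]
  rwa [h2]

omit [PartialOrder A] [StarOrderedRing A] in
theorem RI.neg {z a : A} (ha : a ∈ RI z) : -a ∈ RI z := by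
  have h1 : Continuous fun y : A => -y := by fun_prop
  refine map_mem_closure (f := fun y : A => -y) h1 ha ?_
  rintro _ ⟨w, rfl⟩
  exact ⟨-w, by simp only [mul_neg]⟩

/-- positive elements which are orthogonal modulo the closed ideal `R` can be changed into
orthogonal ones without making them smaller modulo the closed ideals above `R` -/
theorem lift_orth {R : Submodule ℂ A} (hR : IsClosedIdeal R) :
    ∀ (N : ℕ) (e : A) (b : Fin N → A), (∀ i, 0 ≤ b i) → (∀ i j, i ≠ j → b i * b j ∈ R) →
      (∀ i, b i ∈ RI e) → ∃ x : Fin N → A, (∀ i, 0 ≤ x i) ∧ (∀ i j, i ≠ j → x i * x j = 0) ∧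
        (∀ i, x i ∈ RI e) ∧ ∀ M : Submodule ℂ A, IsClosedIdeal M → R ≤ M → ∀ i, x i ∈ M → b i ∈ M
  | 0, e, b, _, _, _ => ⟨fun i => i.elim0, fun i => i.elim0, fun i => i.elim0, fun i => i.elim0,
      fun _ _ _ i => i.elim0⟩
  | N + 1, e, b, hb, ho, he => by
    obtain ⟨B, i1, i2, i3, φ, hφ, hk⟩ := hR.quot
    set s : A := ∑ k : Fin N, b k.succ with hs
    have hs0 : 0 ≤ s := Finset.sum_nonneg fun k _ => hb _
    set d : A := b 0 - s with hd
    have hbs : ∀ i, star (b i) = b i := fun i => (IsSelfAdjoint.of_nonneg (hb i)).star_eq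
    have hds : IsSelfAdjoint d :=
      (IsSelfAdjoint.of_nonneg (hb 0)).sub (IsSelfAdjoint.of_nonneg hs0)
    have hp0 : 0 ≤ d⁺ := CFC.posPart_nonneg d
    have hm0 : 0 ≤ d⁻ := CFC.negPart_nonneg d
    have hms : star d⁻ = d⁻ := (IsSelfAdjoint.of_nonneg hm0).star_eq
    have hps : star d⁺ = d⁺ := (IsSelfAdjoint.of_nonneg hp0).star_eq
    have hpm : d⁺ * d⁻ = 0 := CFC.posPart_mul_negPart d
    have hdec : d = d⁺ - d⁻ := (CFC.posPart_sub_negPart d hds).symm
    have ho' : ∀ i j, i ≠ j → φ (b i) * φ (b j) = 0 := fun i j h => by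
      rw [← map_mul]; exact (hk _).2 (ho i j h)
    have hφ0s : φ (b 0) * φ s = 0 := by
      rw [hs, map_sum, Finset.mul_sum]
      exact Finset.sum_eq_zero fun k _ => ho' _ _ (Fin.succ_ne_zero k).symm
    have hφd : φ d = φ (b 0) - φ s := by rw [hd, map_sub]
    have u1 := CFC.posPart_negPart_unique hφd hφ0s (map_nonneg' φ (hb 0)) (map_nonneg' φ hs0)
    have hφd' : φ d = φ d⁺ - φ d⁻ := by rw [← map_sub, ← hdec]
    have u2 := CFC.posPart_negPart_unique hφd' (by rw [← map_mul, hpm, map_zero])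
      (map_nonneg' φ hp0) (map_nonneg' φ hm0)
    have hφp : φ d⁺ = φ (b 0) := u2.1.symm.trans u1.1
    have hφm : φ d⁻ = φ s := u2.2.symm.trans u1.2
    -- the smaller family
    let b' : Fin N → A := fun i => d⁻ * b i.succ * d⁻
    have hb'0 : ∀ i, 0 ≤ b' i := fun i => by
      have h1 := star_left_conjugate_nonneg (hb i.succ) d⁻
      rwa [hms] at h1
    have hcub : ∀ i, φ (b' i) = φ (b i.succ) * φ (b i.succ) * φ (b i.succ) := by
      intro i
      have h1 : φ s * φ (b i.succ) = φ (b i.succ) * φ (b i.succ) := by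
        rw [hs, map_sum, Finset.sum_mul, Finset.sum_eq_single i]
        · intro k _ hki
          exact ho' _ _ fun h => hki (Fin.succ_injective _ h)
        · intro h; exact absurd (Finset.mem_univ _) h
      have h2 : φ (b i.succ) * φ s = φ (b i.succ) * φ (b i.succ) := by
        rw [hs, map_sum, Finset.mul_sum, Finset.sum_eq_single i]
        · intro k _ hki
          exact ho' _ _ fun h => hki (Fin.succ_injective _ h).symm
        · intro h; exact absurd (Finset.mem_univ _) h
      show φ (d⁻ * b i.succ * d⁻) = _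
      rw [map_mul, map_mul, hφm, h1, mul_assoc, h2, ← mul_assoc]
    have hb'o : ∀ i j, i ≠ j → b' i * b' j ∈ R := by
      intro i j hij
      rw [← hk, map_mul, hcub, hcub]
      have h1 := ho' i.succ j.succ fun h => hij (Fin.succ_injective _ h)
      calc _ = φ (b i.succ) * φ (b i.succ) * (φ (b i.succ) * φ (b j.succ)) *
            φ (b j.succ) * φ (b j.succ) := by simp only [mul_assoc]
        _ = 0 := by rw [h1]; simp
    obtain ⟨x, x1, x2, x3, x4⟩ := lift_orth hR N d⁻ b' hb'0 hb'o fun i => by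
      show d⁻ * b i.succ * d⁻ ∈ RI d⁻
      rw [mul_assoc]
      exact RI.mul_self _ _
    have hde : d ∈ RI e := by
      rw [hd, sub_eq_add_neg]
      exact RI.add (he 0) (RI.neg (RI.sum _ fun k _ => he _))
    have hme : d⁻ ∈ RI e := by
      have h1 : d⁻ = d⁺ + -d := by
        have h2 : d⁻ = d⁺ - (d⁺ - d⁻) := by abel
        rw [← sub_eq_add_neg]
        rwa [← hdec] at h2
      rw [h1]
      exact RI.add (RI.trans (posPart_mem_RI hds) hde) (RI.neg hde)
    have o1 : ∀ i, d⁺ * x i = 0 := by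
      intro i
      have h7 := RI.orth (z := d⁺) (z' := d⁻) (by rw [hps]; exact hpm) (self_mem_RI hp0) (x3 i)
      rwa [hps] at h7
    have o2 : ∀ i, x i * d⁺ = 0 := by
      intro i
      have h7 := congrArg star (o1 i)
      rwa [star_mul, star_zero, hps, (IsSelfAdjoint.of_nonneg (x1 i)).star_eq] at h7
    refine ⟨Fin.cons d⁺ x, ?_, ?_, ?_, ?_⟩
    · intro i
      refine Fin.cases ?_ (fun i => ?_) i
      · exact hp0
      · exact x1 i
    · intro i j
      refine Fin.cases ?_ (fun i => ?_) i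
      · refine Fin.cases ?_ (fun j => ?_) j
        · intro h; exact absurd rfl h
        · intro _; exact o1 j
      · refine Fin.cases ?_ (fun j => ?_) j
        · intro _; exact o2 i
        · intro hij; exact x2 i j fun h => hij (congrArg Fin.succ h)
    · intro i
      refine Fin.cases ?_ (fun i => ?_) i
      · exact RI.trans (posPart_mem_RI hds) hde
      · exact RI.trans (x3 i) hme
    · intro M hM hRM i
      refine Fin.cases ?_ (fun i => ?_) i
      · intro h
        have h1 : d⁺ - b 0 ∈ R := by rw [← hk, map_sub, hφp, sub_self]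
        have h2 := M.sub_mem h (hRM h1)
        rwa [show (Fin.cons d⁺ x : Fin (N + 1) → A) 0 - (d⁺ - b 0) = b 0 by simp] at h2
      · intro h
        have h0 : b' i ∈ M := x4 M hM hRM i h
        have h1 : b' i - b i.succ * b i.succ * b i.succ ∈ R := by
          rw [← hk, map_sub, hcub, map_mul, map_mul, sub_self]
        have h2 : b i.succ * b i.succ * b i.succ ∈ M := by
          have := M.sub_mem h0 (hRM h1)
          rwa [sub_sub_cancel] at this
        have h3 : b i.succ * b i.succ ∈ M := by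
          refine hM.of_star_mul_self ?_
          rw [star_mul, hbs, ← mul_assoc]
          exact (hM.2 (b i.succ) _ h2).2
        exact hM.of_star_mul_self (by rw [hbs]; exact h3)

end

section

variable {A : Type u} [CStarAlgebra A] [PartialOrder A] [StarOrderedRing A]

/-- If a unital weakly purely infinite C*-algebra contains sufficiently many positive elements
which are pairwise orthogonal modulo each maximal ideal and outside all maximal ideals, its unit
is properly infinite. -/
theorem unit_of_orth_mod {n : ℕ} (hn : WPI A n) {N : ℕ} (hN : numS n ≤ N) (b : Fin N → A)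
    (hb : ∀ i, 0 ≤ b i) (ho : ∀ M : Submodule ℂ A, IsMaxIdeal M → ∀ i j, i ≠ j → b i * b j ∈ M)
    (hf : ∀ M : Submodule ℂ A, IsMaxIdeal M → ∀ i, b i ∉ M) : InfB (1 : A) 1 := by
  let R : Submodule ℂ A := sInf {M | IsMaxIdeal M}
  have hmem : ∀ x, x ∈ R ↔ ∀ M : Submodule ℂ A, IsMaxIdeal M → x ∈ M := fun x => by
    show x ∈ sInf {M | IsMaxIdeal M} ↔ _
    rw [Submodule.mem_sInf]
    rfl
  have hR : IsClosedIdeal R := by
    refine ⟨?_, fun a x hx => ⟨(hmem _).2 fun M hM => ?_, (hmem _).2 fun M hM => ?_⟩⟩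
    · have h1 : (R : Set A) = ⋂ M : {M : Submodule ℂ A | IsMaxIdeal M}, (M.1 : Set A) := by
        ext x
        rw [Set.mem_iInter]
        exact (hmem x).trans ⟨fun h M => h M.1 M.2, fun h M hM => h ⟨M, hM⟩⟩
      rw [h1]
      exact isClosed_iInter fun M => M.2.1.1
    · exact (hM.1.2 a x ((hmem x).1 hx M hM)).1
    · exact (hM.1.2 a x ((hmem x).1 hx M hM)).2
  obtain ⟨x, x1, x2, -, x4⟩ := lift_orth hR N 1 b hb
    (fun i j h => (hmem _).2 fun M hM => ho M hM i j h) fun i => by
      have := RI.mul_self (1 : A) (b i)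
      rwa [one_mul] at this
  refine unit_of_full hn hN x1 x2 fun i => full_iff.2 fun M hM h => ?_
  exact hf M hM i (x4 M hM.1 (fun y hy => (hmem y).1 hy M hM) i h)

end

end Vale.Agent.P133.R2.H28.H645
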