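import Vale.Agent.P133.R2.H645.Rad
import Vale.Agent.P133.H681.Generic2

/-!
P133 (helper645): the unit of a unital weakly purely infinite C*-algebra is properly infinite if
this is so modulo an ideal which is contained in all maximal ideals.
-/

open scoped ComplexOrder

namespace Vale.Agent.P133.R2.H28.H645

open Vale.Agent.P133 Vale.Agent.P133.Statement Vale.Agent.P133.H832 Vale.Agent.P133F
  Vale.Agent.P133.H681 Vale.Agent.P133.R2.H28

universe u

section

variable {B : Type u} [CStarAlgebra B] [PartialOrder B] [StarOrderedRing B]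

theorem bump_estimate {T r : B} (hT : IsSelfAdjoint T) {f : ℝ → ℝ} (hf : Continuous f) {l : ℝ}
    (h : ∀ t, (1 - f t) * (1 - f t) ≤ 9 * ((t - l) * (t - l))) :
    ‖r - cfc f T * r‖ ≤ 3 * ‖T * r - l • r‖ := by
  set u : B := cfc (fun t => 1 - f t) T with hu
  set v : B := cfc (fun t => t - l) T with hv
  have hus : star u = u := (cfc_predicate (p := IsSelfAdjoint) _ T).star_eq
  have hvs : star v = v := (cfc_predicate (p := IsSelfAdjoint) _ T).star_eq
  have hu1 : u = 1 - cfc f T := by
    rw [hu, cfc_sub (fun _ => (1 : ℝ)) f T (by fun_prop) hf.continuousOn, cfc_const_one ℝ T]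
  have hv1 : v = T - algebraMap ℝ B l := by
    rw [hv, cfc_sub (fun t => t) (fun _ => l) T (by fun_prop) (by fun_prop), cfc_id' ℝ T,
      cfc_const l T]
  have huu : u * u = cfc (fun t => (1 - f t) * (1 - f t)) T := by
    rw [hu, ← cfc_mul _ _ T (by fun_prop) (by fun_prop)]
  have hvv : (9 : ℝ) • (v * v) = cfc (fun t => 9 * ((t - l) * (t - l))) T := by
    rw [hv, ← cfc_mul _ _ T (by fun_prop) (by fun_prop), ← cfc_const_mul (9 : ℝ) _ T (by fun_prop)]
  have hle : u * u ≤ (9 : ℝ) • (v * v) := by
    rw [huu, hvv]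
    exact cfc_mono (fun t _ => h t) (by fun_prop) (by fun_prop)
  have e1 : r - cfc f T * r = u * r := by rw [hu1, sub_mul, one_mul]
  have e2 : T * r - l • r = v * r := by
    rw [hv1, sub_mul, Algebra.smul_def]
  rw [e1, e2]
  have h1 : star (u * r) * (u * r) ≤ (9 : ℝ) • (star (v * r) * (v * r)) := by
    have h2 := star_left_conjugate_le_conjugate hle r
    have h3 : star r * (u * u) * r = star (u * r) * (u * r) := by
      rw [star_mul, hus]; simp only [mul_assoc]
    have h4 : star r * ((9 : ℝ) • (v * v)) * r = (9 : ℝ) • (star (v * r) * (v * r)) := by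
      rw [star_mul, hvs, mul_smul_comm, smul_mul_assoc]; simp only [mul_assoc]
    rwa [h3, h4] at h2
  have h5 := CStarAlgebra.norm_le_norm_of_nonneg_of_le (star_mul_self_nonneg (u * r)) h1
  rw [norm_smul, CStarRing.norm_star_mul_self, CStarRing.norm_star_mul_self, Real.norm_eq_abs,
    abs_of_pos (by norm_num : (0 : ℝ) < 9)] at h5
  nlinarith [norm_nonneg (u * r), norm_nonneg (v * r)]

/-- a bump at `i + 1` -/
noncomputable def bump (i : ℕ) (t : ℝ) : ℝ := max 0 (1 - 3 * |t - (i + 1)|)

theorem bump_cont (i : ℕ) : Continuous (bump i) := by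
  unfold bump
  fun_prop

theorem bump_mul {i j : ℕ} (h : i ≠ j) (t : ℝ) : bump i t * bump j t = 0 := by
  unfold bump
  by_contra hne
  have h1 : 1 - 3 * |t - (i + 1)| > 0 := by
    by_contra h2
    exact hne (by rw [max_eq_left (not_lt.1 h2), zero_mul])
  have h3 : 1 - 3 * |t - (j + 1)| > 0 := by
    by_contra h2
    exact hne (by rw [max_eq_left (not_lt.1 h2), mul_zero])
  have h4 : |((i : ℤ) : ℝ) - ((j : ℤ) : ℝ)| < 1 := by
    have h5 : ((i : ℤ) : ℝ) - ((j : ℤ) : ℝ) = (t - (j + 1)) - (t - (i + 1)) := by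
      push_cast; ring
    rw [h5]
    have := abs_sub (t - ((j : ℝ) + 1)) (t - ((i : ℝ) + 1))
    linarith
  rw [← Int.cast_sub, ← Int.cast_abs] at h4
  have h6 : |(i : ℤ) - (j : ℤ)| < 1 := by exact_mod_cast h4
  rw [Int.abs_lt_one_iff] at h6
  exact h (by omega)

theorem bump_est (i : ℕ) (t : ℝ) :
    (1 - bump i t) * (1 - bump i t) ≤ 9 * ((t - (i + 1)) * (t - (i + 1))) := by
  have h1 : 1 - bump i t ≤ 3 * |t - (i + 1)| := by
    unfold bump
    have := le_max_right 0 (1 - 3 * |t - ((i : ℝ) + 1)|)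
    linarith
  have h2 : 0 ≤ 1 - bump i t := by
    unfold bump
    have := abs_nonneg (t - ((i : ℝ) + 1))
    have h3 : max 0 (1 - 3 * |t - ((i : ℝ) + 1)|) ≤ 1 := max_le zero_le_one (by linarith)
    linarith
  have h3 : |t - ((i : ℝ) + 1)| * |t - ((i : ℝ) + 1)| =
      (t - ((i : ℝ) + 1)) * (t - ((i : ℝ) + 1)) := abs_mul_abs_self _
  nlinarith [abs_nonneg (t - ((i : ℝ) + 1))]

/-- a properly infinite unit gives many orthogonal full elements -/
theorem family_of_unit (h : InfB (1 : B) 1) (N : ℕ) :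
    ∃ y : Fin N → B, (∀ i, 0 ≤ y i) ∧ (∀ i j, i ≠ j → y i * y j = 0) ∧
      ∀ i, ∃ r : B, ‖star r * y i * r - 1‖ < 1 := by
  obtain ⟨r, hr⟩ := h.2 N (1 / (24 * (N + 1) * (N + 1))) (by positivity)
  have hη : (1 : ℝ) / (24 * (N + 1) * (N + 1)) ≤ 1 / 24 := by
    rw [div_le_div_iff₀ (by positivity) (by norm_num)]
    have : (0 : ℝ) ≤ N := Nat.cast_nonneg N
    nlinarith
  have hrn : ∀ i, ‖r i‖ ≤ 2 := by
    intro i
    have h1 := hr i i
    rw [if_pos rfl, mul_one] at h1
    have h2 : ‖star (r i) * r i‖ ≤ ‖star (r i) * r i - 1‖ + ‖(1 : B)‖ := by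
      calc ‖star (r i) * r i‖ = ‖(star (r i) * r i - 1) + 1‖ := by rw [sub_add_cancel]
        _ ≤ _ := norm_add_le _ _
    have h3 : ‖(1 : B)‖ ≤ 1 := by
      have h4 : ‖(1 : B)‖ * ‖(1 : B)‖ = ‖(1 : B)‖ := by
        have := CStarRing.norm_star_mul_self (x := (1 : B))
        rw [star_one, one_mul] at this
        exact this.symm
      nlinarith [norm_nonneg (1 : B)]
    rw [CStarRing.norm_star_mul_self] at h2
    by_contra h5
    push Not at h5
    nlinarith
  let T : B := ∑ j : Fin N, (((j : ℕ) : ℝ) + 1) • (r j * star (r j))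
  have hT : IsSelfAdjoint T := by
    show star (∑ j : Fin N, (((j : ℕ) : ℝ) + 1) • (r j * star (r j))) = _
    rw [star_sum]
    refine Finset.sum_congr rfl fun j _ => ?_
    rw [star_smul, star_mul, star_star, star_trivial (((j : ℕ) : ℝ) + 1)]
  have hTr : ∀ i : Fin N, ‖T * r i - (((i : ℕ) : ℝ) + 1) • r i‖ ≤ 1 / 12 := by
    intro i
    have e1 : T * r i - (((i : ℕ) : ℝ) + 1) • r i = ∑ j : Fin N, (((j : ℕ) : ℝ) + 1) •
        (r j * (star (r j) * 1 * r i - (if j = i then 1 else 0))) := by
      have e2 : ∑ j : Fin N, (((j : ℕ) : ℝ) + 1) • (r j * (if j = i then (1 : B) else 0)) =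
          (((i : ℕ) : ℝ) + 1) • r i := by
        rw [Finset.sum_eq_single i]
        · rw [if_pos rfl, mul_one]
        · intro j _ hj
          rw [if_neg hj, mul_zero, smul_zero]
        · intro h; exact absurd (Finset.mem_univ _) h
      rw [← e2]
      show (∑ j : Fin N, (((j : ℕ) : ℝ) + 1) • (r j * star (r j))) * r i - _ = _
      rw [Finset.sum_mul, ← Finset.sum_sub_distrib]
      refine Finset.sum_congr rfl fun j _ => ?_
      rw [mul_sub, smul_sub, mul_one, smul_mul_assoc]
      simp only [mul_assoc]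
    rw [e1]
    have h1 : ∀ j : Fin N, ‖(((j : ℕ) : ℝ) + 1) •
        (r j * (star (r j) * 1 * r i - (if j = i then 1 else 0)))‖ ≤
        (N + 1) * (2 * (1 / (24 * (N + 1) * (N + 1)))) := by
      intro j
      rw [norm_smul, Real.norm_of_nonneg (by positivity)]
      have h2 : ((j : ℕ) : ℝ) ≤ N := by exact_mod_cast j.2.le
      gcongr
      refine (norm_mul_le _ _).trans ?_
      gcongr
      · exact hrn j
      · exact (hr j i).le
    refine (norm_sum_le_of_le _ fun j _ => h1 j).trans ?_
    rw [Finset.sum_const, Finset.card_univ, Fintype.card_fin, nsmul_eq_mul]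
    have hN : (0 : ℝ) ≤ N := Nat.cast_nonneg N
    have h3 : (N : ℝ) * ((N + 1) * (2 * (1 / (24 * (N + 1) * (N + 1))))) = (N / (N + 1)) * (1 / 12) := by
      field_simp
      ring
    rw [h3]
    have h4 : (N : ℝ) / (N + 1) ≤ 1 := by rw [div_le_one (by positivity)]; linarith
    nlinarith
  refine ⟨fun i => cfc (bump i) T, fun i => cfc_nonneg fun t _ => le_max_left _ _, ?_, ?_⟩
  · intro i j hij
    show cfc (bump i) T * cfc (bump j) T = 0
    rw [← cfc_mul _ _ T (bump_cont i).continuousOn (bump_cont j).continuousOn]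
    have h1 : (fun t => bump i t * bump j t) = fun _ => (0 : ℝ) := by
      funext t
      exact bump_mul (fun h => hij (Fin.ext h)) t
    rw [h1, cfc_const_zero ℝ T]
  · intro i
    refine ⟨r i, ?_⟩
    have h1 := bump_estimate (r := r i) hT (bump_cont i) (l := ((i : ℕ) : ℝ) + 1) (bump_est i)
    have h2 := hTr i
    have h3 := hr i i
    rw [if_pos rfl, mul_one] at h3
    have e1 : star (r i) * cfc (bump i) T * r i - 1 =
        (star (r i) * r i - 1) - star (r i) * (r i - cfc (bump i) T * r i) := by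
      rw [mul_sub, mul_assoc]; abel
    show ‖star (r i) * cfc (bump i) T * r i - 1‖ < 1
    rw [e1]
    calc _ ≤ ‖star (r i) * r i - 1‖ + ‖star (r i) * (r i - cfc (bump i) T * r i)‖ :=
          norm_sub_le _ _
      _ ≤ 1 / 24 + 2 * (3 * (1 / 12)) := by
          gcongr
          · exact (h3.le.trans hη)
          · refine (norm_mul_le _ _).trans ?_
            rw [norm_star]
            gcongr
            · exact hrn i
            · exact h1.trans (by gcongr)
      _ < 1 := by norm_num

end

section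

variable {A B : Type u} [CStarAlgebra A] [PartialOrder A] [StarOrderedRing A]
  [CStarAlgebra B] [PartialOrder B] [StarOrderedRing B]

/-- Let `A` be unital and weakly purely infinite and let `φ : A → B` be surjective with kernel
inside all maximal ideals of `A`. Then the unit of `A` is properly infinite iff that of `B` is. -/
theorem unit_iff_quotient (hW : WeaklyPurelyInfinite A) (φ : A →⋆ₐ[ℂ] B)
    (hφ : Function.Surjective φ)
    (hk : ∀ x : A, φ x = 0 → ∀ M : Submodule ℂ A, IsMaxIdeal M → x ∈ M) :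
    AllBelow (1 : A) 1 ↔ AllBelow (1 : B) 1 := by
  have h10 : (0 : A) ≤ 1 := by
    have := star_mul_self_nonneg (1 : A)
    rwa [star_one, one_mul] at this
  have h10B : (0 : B) ≤ 1 := by
    have := star_mul_self_nonneg (1 : B)
    rwa [star_one, one_mul] at this
  have hφn : ∀ x : A, ‖φ x‖ ≤ ‖x‖ := fun x => NonUnitalStarAlgHom.norm_apply_le φ x
  constructor
  · intro h
    have h1 := infB_of_allBelow h10 h
    refine allBelow_of_infB ⟨h10B, fun m ε hε => ?_⟩
    obtain ⟨r, hr⟩ := h1.2 m ε hε
    refine ⟨fun i => φ (r i), fun i j => ?_⟩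
    have e1 : star (φ (r i)) * 1 * φ (r j) - (if i = j then 1 else 0) =
        φ (star (r i) * 1 * r j - (if i = j then 1 else 0)) := by
      rw [map_sub, map_mul, map_mul, map_star, map_one]
      split_ifs
      · rw [map_one]
      · rw [map_zero]
    rw [e1]
    exact (hφn _).trans_lt (hr i j)
  · intro h
    obtain ⟨n, hn⟩ := wpi_elementwise hW
    obtain ⟨y, y1, y2, y3⟩ := family_of_unit (infB_of_allBelow h10B h) (numS n)
    choose r hr using y3
    choose c hc using fun i => hφ (CFC.sqrt (y i))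
    choose s hs using fun i => hφ (r i)
    have hb : ∀ i, φ (star (c i) * c i) = y i := by
      intro i
      rw [map_mul, map_star, hc, (IsSelfAdjoint.of_nonneg (CFC.sqrt_nonneg (y i))).star_eq,
        CFC.sqrt_mul_sqrt_self (y i) (y1 i)]
    refine allBelow_of_infB (unit_of_orth_mod hn le_rfl (fun i => star (c i) * c i)
      (fun i => star_mul_self_nonneg _) (fun M hM i j hij => hk _ ?_ M hM) fun M hM i hmem => ?_)
    · rw [map_mul, hb, hb]
      exact y2 i j hij
    · -- `x = s* b s` is invertible modulo the kernel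
      have h1 : star (s i) * (star (c i) * c i) * s i ∈ M :=
        (hM.1.2 (s i) _ (hM.1.2 (star (s i)) _ hmem).1).2
      have h2 : φ (star (s i) * (star (c i) * c i) * s i) = star (r i) * y i * r i := by
        rw [map_mul, map_mul, map_star, hs, hb]
      have hu : IsUnit (star (r i) * y i * r i) := by
        have h7 : IsUnit (1 - (1 - star (r i) * y i * r i)) :=
          (Units.oneSub (1 - star (r i) * y i * r i) (by
            rw [← norm_neg, neg_sub]; exact hr i)).isUnit
        rwa [sub_sub_cancel] at h7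
      obtain ⟨u, hu⟩ := hu
      obtain ⟨v, hv⟩ := hφ (↑u⁻¹ : B)
      have h3 : v * (star (s i) * (star (c i) * c i) * s i) - 1 ∈ M := by
        refine hk _ ?_ M hM
        rw [map_sub, map_mul, h2, ← hu, hv, Units.inv_mul, map_one, sub_self]
      have h4 := M.sub_mem (hM.1.2 v _ h1).1 h3
      rw [sub_sub_cancel] at h4
      exact (ideal_ne_top_iff hM.1).1 hM.2.1 h4

end

end Vale.Agent.P133.R2.H28.H645
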