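import Vale.Agent.P133.R2.H28.Sums

/-!
P133 (helper645): weakly purely infinite C*-algebras without nonzero unital quotients.
-/

open scoped ComplexOrder

namespace Vale.Agent.P133.R2.H28.H645

open Vale.Agent.P133 Vale.Agent.P133.Statement Vale.Agent.P133.H832 Vale.Agent.P133F
  Vale.Agent.P133.H681 Vale.Agent.P133.R2.H28

universe u

section

variable {A : Type u} [NonUnitalCStarAlgebra A]

/-- no nonzero quotient of `A` is unital: for no proper closed ideal `J` there is an element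
which is a two-sided unit modulo `J` -/
def NoUnitalQuotient (A : Type u) [NonUnitalCStarAlgebra A] : Prop :=
  ∀ J : Submodule ℂ A, IsClosedIdeal J → J ≠ ⊤ →
    ¬ ∃ u : A, ∀ x : A, x - u * x ∈ J ∧ x - x * u ∈ J

variable [PartialOrder A] [StarOrderedRing A]

theorem inId_of_le {x y : A} (hx : 0 ≤ x) (hxy : x ≤ y) : InId y x := by
  obtain ⟨I, hI, hI'⟩ := isClosedIdeal_inId y
  exact (hI' x).1 (hI.of_le hx hxy ((hI' y).2 (InId.refl y)))

/-- if no nonzero quotient is unital, the annihilator of `p` is full, where `e` is a unit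
for `p` -/
theorem exists_orth (hU : NoUnitalQuotient A) {e p : A} (he : star e = e) (hp : star p = p)
    (hep : e * p = p) {c : A} (hc : 0 ≤ c) {δ : ℝ} (hδ : 0 < δ) :
    ∃ h : A, 0 ≤ h ∧ p * h = 0 ∧ InId h (cut c δ) := by
  have hpe : p * e = p := by
    have h1 := congrArg star hep
    rwa [star_mul, he, hp] at h1
  let N : Submodule ℂ A :=
    { carrier := {x | ∃ h : A, 0 ≤ h ∧ p * h = 0 ∧ InId h x}
      zero_mem' := ⟨0, le_rfl, mul_zero _, InId.zero _⟩
      add_mem' := by
        rintro x y ⟨h, h0, h1, h2⟩ ⟨k, k0, k1, k2⟩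
        refine ⟨h + k, add_nonneg h0 k0, by rw [mul_add, h1, k1, add_zero], InId.add ?_ ?_⟩
        · exact (inId_of_le h0 (le_add_of_nonneg_right k0)).trans h2
        · exact (inId_of_le k0 (le_add_of_nonneg_left h0)).trans k2
      smul_mem' := by
        rintro t x ⟨h, h0, h1, h2⟩
        exact ⟨h, h0, h1, InId.smul t h2⟩ }
  have hN : ∀ a x : A, x ∈ N → a * x ∈ N ∧ x * a ∈ N := by
    rintro a x ⟨h, h0, h1, h2⟩
    exact ⟨⟨h, h0, h1, InId.mulL h2 a⟩, ⟨h, h0, h1, InId.mulR h2 a⟩⟩
  have hJ := isClosedIdeal_closure hN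
  have hle : ∀ x : A, x ∈ N → x ∈ N.topologicalClosure := fun x hx =>
    Submodule.le_topologicalClosure N hx
  have key : ∀ x : A, x - e * x ∈ N.topologicalClosure := by
    intro x
    have h1 : p * (x - e * x) = 0 := by
      rw [mul_sub, ← mul_assoc, hpe, sub_self]
    have h2 : (x - e * x) * star (x - e * x) ∈ N := by
      refine ⟨(x - e * x) * star (x - e * x), mul_star_self_nonneg _, ?_, InId.refl _⟩
      rw [← mul_assoc, h1, zero_mul]
    have h3 : star (x - e * x) ∈ N.topologicalClosure := by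
      refine hJ.of_star_mul_self ?_
      rw [star_star]
      exact hle _ h2
    have h4 := hJ.star_mem h3
    rwa [star_star] at h4
  have hT : N.topologicalClosure = ⊤ := by
    by_contra hne
    refine hU _ hJ hne ⟨e, fun x => ⟨key x, ?_⟩⟩
    have h1 := hJ.star_mem (key (star x))
    rwa [star_sub, star_mul, star_star, he] at h1
  have hcJ : c ∈ N.topologicalClosure := by rw [hT]; exact Submodule.mem_top
  have hcl : c ∈ closure (N : Set A) := hcJ
  obtain ⟨y, ⟨h, h0, h1, h2⟩, hy⟩ := Metric.mem_closure_iff.1 hcl δ hδ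
  refine ⟨h, h0, h1, ?_⟩
  obtain ⟨I, hI, hI'⟩ := isClosedIdeal_inId h
  refine (hI' _).1 (hI.cut_mem hc ((hI' y).2 h2) ?_)
  rwa [dist_eq_norm] at hy

/-- fullness is an open condition -/
theorem exists_cut {h c : A} (h0 : 0 ≤ h) (hc : 0 ≤ c) {η : ℝ} (hη : 0 < η)
    (hI : InId h (cut c (η / 2))) : ∃ δ : ℝ, 0 < δ ∧ InId (cut h δ) (cut c η) := by
  obtain ⟨δ, hδ, h1⟩ := normMod_inId hI (half_pos hη)
  refine ⟨δ, hδ, ?_⟩
  have h2 : NormMod {cut h δ} (cut h δ) 0 := by
    intro B i φ hφ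
    rw [hφ _ (Set.mem_singleton _), norm_zero]
  have h3 : NormMod {cut h δ} h δ := by
    have := normMod_of_cut h0 hδ h2
    rwa [zero_add] at this
  have h4 := normMod_of_cut hc (half_pos hη) (h1 _ h3)
  exact R2.H28.inId_cut hc h4 hη (by linarith)

/-- the function which is `0` up to `l`, `1` from `r` on and linear between -/
noncomputable def stepF (l r t : ℝ) : ℝ := max 0 (min 1 ((t - l) / (r - l)))

theorem stepF_cont (l r : ℝ) : Continuous (stepF l r) := by
  unfold stepF
  fun_prop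

theorem stepF_of_le {l r t : ℝ} (h : l < r) (ht : t ≤ l) : stepF l r t = 0 := by
  unfold stepF
  have h1 : (t - l) / (r - l) ≤ 0 := div_nonpos_of_nonpos_of_nonneg (by linarith) (by linarith)
  exact max_eq_left ((min_le_right _ _).trans h1)

theorem stepF_of_ge {l r t : ℝ} (h : l < r) (ht : r ≤ t) : stepF l r t = 1 := by
  unfold stepF
  have h1 : 1 ≤ (t - l) / (r - l) := by
    rw [one_le_div (by linarith)]; linarith
  rw [min_eq_left h1]
  exact max_eq_right zero_le_one

/-- the levels `δ (k + 1) / (k + 2)` -/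
noncomputable def lev (δ : ℝ) (k : ℕ) : ℝ := δ * ((k + 1) / (k + 2))

theorem lev_pos {δ : ℝ} (hδ : 0 < δ) (k : ℕ) : 0 < lev δ k := by
  unfold lev
  positivity

theorem lev_lt {δ : ℝ} (hδ : 0 < δ) (k : ℕ) : lev δ k < δ := by
  unfold lev
  have h1 : ((k : ℝ) + 1) / (k + 2) < 1 := by
    rw [div_lt_one (by positivity)]; linarith
  nlinarith

theorem lev_succ {δ : ℝ} (hδ : 0 < δ) (k : ℕ) : lev δ k < lev δ (k + 1) := by
  unfold lev
  have h1 : ((k : ℝ) + 1) / (k + 2) < (((k + 1 : ℕ) : ℝ) + 1) / (((k + 1 : ℕ) : ℝ) + 2) := by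
    rw [div_lt_div_iff₀ (by positivity) (by positivity)]
    push_cast
    nlinarith
  exact mul_lt_mul_of_pos_left h1 hδ

/-- the elements of the chain of `a` at level `δ` -/
noncomputable def ch (δ : ℝ) (a : A) (k : ℕ) : A := cfcₙ (stepF (lev δ k) (lev δ (k + 1))) a

theorem ch_star (δ : ℝ) (a : A) (k : ℕ) : star (ch δ a k) = ch δ a k :=
  (cfcₙ_predicate (p := IsSelfAdjoint) _ a).star_eq

theorem stepF_zero {δ : ℝ} (hδ : 0 < δ) (k : ℕ) : stepF (lev δ k) (lev δ (k + 1)) 0 = 0 :=
  stepF_of_le (lev_succ hδ k) (lev_pos hδ k).le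

/-- `ch δ a k` is a unit for functions of `a` which vanish up to `lev δ (k + 1)` -/
theorem ch_mul {δ : ℝ} (hδ : 0 < δ) (a : A) (k : ℕ) {g : ℝ → ℝ}
    (hg : Continuous g) (hg0 : ∀ t ≤ lev δ (k + 1), g t = 0) :
    ch δ a k * cfcₙ g a = cfcₙ g a := by
  unfold ch
  rw [← cfcₙ_mul _ _ a (stepF_cont _ _).continuousOn (stepF_zero hδ k) hg.continuousOn
    (hg0 0 (lev_pos hδ _).le)]
  congr 1
  funext t
  rcases le_total t (lev δ (k + 1)) with h | h
  · rw [hg0 t h, mul_zero]
  · rw [stepF_of_ge (lev_succ hδ k) h, one_mul]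

theorem ch_succ {δ : ℝ} (hδ : 0 < δ) (a : A) (k : ℕ) :
    ch δ a k * ch δ a (k + 1) = ch δ a (k + 1) :=
  ch_mul hδ a k (stepF_cont _ _) fun _ ht => stepF_of_le (lev_succ hδ _) ht

theorem ch_cut {δ : ℝ} (hδ : 0 < δ) (a : A) (k : ℕ) :
    ch δ a k * cut a δ = cut a δ :=
  ch_mul hδ a k (by fun_prop) fun t ht => by
    have := lev_lt hδ (k + 1)
    exact max_eq_right (by linarith)

/-- functions of `h` which vanish near zero are multiples of `h` -/
theorem mul_cfc_eq_zero {x h : A} (hs : IsSelfAdjoint h) (hxh : x * h = 0) {g : ℝ → ℝ}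
    (hg : Continuous g) {r : ℝ} (hr : 0 < r) (hg0 : ∀ t ≤ r, g t = 0) : x * cfcₙ g h = 0 := by
  set f : ℝ → ℝ := fun t => g t / max t r with hf
  have hpos : ∀ t : ℝ, 0 < max t r := fun t => lt_of_lt_of_le hr (le_max_right _ _)
  have hfc : Continuous f := hg.div (by fun_prop) fun t => (hpos t).ne'
  have hf0 : f 0 = 0 := by simp only [hf, hg0 0 hr.le, zero_div]
  have h1 : cfcₙ g h = h * cfcₙ f h := by
    have h2 : g = fun t => t * f t := by
      funext t
      rcases le_total t r with ht | ht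
      · simp only [hf, hg0 t ht, zero_div, mul_zero]
      · simp only [hf, max_eq_left ht]
        have : t ≠ 0 := (lt_of_lt_of_le hr ht).ne'
        field_simp
    conv_lhs => rw [h2]
    rw [cfcₙ_mul (fun x : ℝ => x) f h (by fun_prop) rfl hfc.continuousOn hf0, cfcₙ_id' ℝ h]
  rw [h1, ← mul_assoc, hxh, zero_mul]

theorem mul_ch_eq_zero {δ : ℝ} (hδ : 0 < δ) {x h : A} (hs : IsSelfAdjoint h) (hxh : x * h = 0)
    (k : ℕ) : x * ch δ h k = 0 :=
  mul_cfc_eq_zero hs hxh (stepF_cont _ _) (lev_pos hδ k) fun _ ht =>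
    stepF_of_le (lev_succ hδ k) ht

theorem mul_cut_eq_zero {δ : ℝ} (hδ : 0 < δ) {x h : A} (hs : IsSelfAdjoint h)
    (hxh : x * h = 0) : x * cut h δ = 0 :=
  mul_cfc_eq_zero hs hxh (by fun_prop) hδ fun t ht => max_eq_right (by linarith)

/-- many orthogonal full elements in the annihilator -/
theorem exists_family (hU : NoUnitalQuotient A) {c : A} (hc : 0 ≤ c) {η : ℝ} (hη : 0 < η) :
    ∀ (N : ℕ) (e : ℕ → A), (∀ k, star (e k) = e k) → (∀ k, e k * e (k + 1) = e (k + 1)) →
      ∃ (k : ℕ) (x : Fin N → A), (∀ i, 0 ≤ x i) ∧ (∀ i j, i ≠ j → x i * x j = 0) ∧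
        (∀ i, InId (x i) (cut c η)) ∧ ∀ i, x i * e k = 0
  | 0, e, _, _ => ⟨0, fun i => i.elim0, fun i => i.elim0, fun i => i.elim0, fun i => i.elim0,
      fun i => i.elim0⟩
  | N + 1, e, he, hee => by
    obtain ⟨h, h0, h1, h2⟩ := exists_orth hU (he 0) (he 1) (hee 0) hc (half_pos hη)
    obtain ⟨δ, hδ, h3⟩ := exists_cut h0 hc hη h2
    have hs : IsSelfAdjoint h := IsSelfAdjoint.of_nonneg h0
    -- `e (k + 1)` kills `h`
    have e1 : ∀ k, e (k + 1) * h = 0 := by
      intro k
      induction k with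
      | zero => exact h1
      | succ k ih =>
        have e2 : e (k + 1 + 1) * e (k + 1) = e (k + 1 + 1) := by
          have := congrArg star (hee (k + 1))
          rwa [star_mul, he, he] at this
        rw [← e2, mul_assoc, ih, mul_zero]
    have e3 : ∀ k j, e (k + 1) * ch δ h j = 0 := fun k j => mul_ch_eq_zero hδ hs (e1 k) j
    have e4 : ∀ k j, ch δ h j * e (k + 1) = 0 := by
      intro k j
      have := congrArg star (e3 k j)
      rwa [star_mul, ch_star, he, star_zero] at this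
    have e5 : ∀ k, e (k + 1) * cut h δ = 0 := fun k => mul_cut_eq_zero hδ hs (e1 k)
    have cs : star (cut h δ) = cut h δ := (IsSelfAdjoint.of_nonneg (cut_nonneg h δ)).star_eq
    have e6 : ∀ k, cut h δ * e (k + 1) = 0 := by
      intro k
      have := congrArg star (e5 k)
      rwa [star_mul, cs, he, star_zero] at this
    obtain ⟨k, x, x1, x2, x3, x4⟩ := exists_family hU hc hη N
      (fun k => e (k + 1) + ch δ h k)
      (fun k => by rw [star_add, he, ch_star])
      (fun k => by
        rw [add_mul, mul_add, mul_add, hee, e3, e4, ch_succ hδ]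
        simp)
    have x4' : ∀ i, x i * (e (k + 1) + ch δ h k) = 0 := x4
    have x5 : ∀ i, x i * e (k + 2) = 0 := by
      intro i
      have h5 : (e (k + 1) + ch δ h k) * e (k + 2) = e (k + 2) := by
        rw [add_mul, e4 (k + 1) k, add_zero]; exact hee (k + 1)
      rw [← h5, ← mul_assoc, x4', zero_mul]
    have x6 : ∀ i, x i * cut h δ = 0 := by
      intro i
      have h5 : (e (k + 1) + ch δ h k) * cut h δ = cut h δ := by
        rw [add_mul, e5, zero_add, ch_cut hδ]
      rw [← h5, ← mul_assoc, x4', zero_mul]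
    have x7 : ∀ i, cut h δ * x i = 0 := by
      intro i
      have := congrArg star (x6 i)
      rwa [star_mul, cs, (IsSelfAdjoint.of_nonneg (x1 i)).star_eq, star_zero] at this
    refine ⟨k + 2, Fin.cons (cut h δ) x, ?_, ?_, ?_, ?_⟩
    · intro i
      refine Fin.cases ?_ (fun i => ?_) i
      · exact cut_nonneg h δ
      · exact x1 i
    · intro i j
      refine Fin.cases ?_ (fun i => ?_) i
      · refine Fin.cases ?_ (fun j => ?_) j
        · intro h; exact absurd rfl h
        · intro _; exact x7 j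
      · refine Fin.cases ?_ (fun j => ?_) j
        · intro _; exact x6 i
        · intro hij; exact x2 i j fun h => hij (congrArg Fin.succ h)
    · intro i
      refine Fin.cases ?_ (fun i => ?_) i
      · exact h3
      · exact x3 i
    · intro i
      refine Fin.cases ?_ (fun i => ?_) i
      · exact e6 (k + 1)
      · exact x5 i

/-- In a weakly purely infinite C*-algebra without nonzero unital quotients, for all positive
`a`, `c` and `ε, η > 0` there is a positive `b` orthogonal to `(a - ε)₊` such that all multiples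
of `(c - η)₊` are below `b`. -/
theorem stab_infB {n : ℕ} (hA : WPI A n) (hU : NoUnitalQuotient A) {a c : A} (hc : 0 ≤ c)
    {ε η : ℝ} (hε : 0 < ε) (hη : 0 < η) :
    ∃ b : A, 0 ≤ b ∧ b * cut a ε = 0 ∧ InfB b (cut c η) := by
  obtain ⟨k, x, x1, x2, x3, x4⟩ := exists_family hU hc hη (numS n) (ch ε a) (ch_star ε a)
    (ch_succ hε a)
  refine ⟨∑ i, x i, Finset.sum_nonneg fun i _ => x1 i, ?_,
    infB_sum hA le_rfl x1 x2 (cut_nonneg _ _) x3⟩
  rw [Finset.sum_mul]
  refine Finset.sum_eq_zero fun i _ => ?_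
  rw [← ch_cut hε a k, ← mul_assoc, x4, zero_mul]

/-- the same in terms of Cuntz comparison of matrices, for weakly purely infinite algebras -/
theorem stab (hW : WeaklyPurelyInfinite A) (hU : NoUnitalQuotient A) (a c : A)
    (hc : 0 ≤ c) (ε η : ℝ) (hε : 0 < ε) (hη : 0 < η) :
    ∃ b : A, 0 ≤ b ∧ b * cut a ε = 0 ∧ AllBelow b (cut c η) := by
  obtain ⟨n, hn⟩ := wpi_elementwise hW
  obtain ⟨b, hb, hb1, hb2⟩ := stab_infB hn hU (a := a) hc hε hη
  exact ⟨b, hb, hb1, allBelow_of_infB hb2⟩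

end

end Vale.Agent.P133.R2.H28.H645
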